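/-
S0010 (row 9), work package AS (abstract assembly), helper75.
Basic definitions: the subfield of p-th powers, `L^p(x)`, p-independence, the relation
"equal up to a non-zero p-th power", coefficient comparison lemmas.
-/
import Mathlib

set_option autoImplicit false

namespace Crest.Agent.Helper75.S0010

/-- The subfield `L^p` of `p`-th powers of a field of characteristic `p`. -/
def pPow (L : Type*) [Field L] (p : ℕ) [Fact p.Prime] [CharP L p] : Subfield L :=
  (frobenius L p).fieldRange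

/-- membership tactic for subfields: closes goals `t ∈ S` by the field operations. -/
macro "ppm" : tactic =>
  `(tactic| (repeat' first
    | assumption
    | exact one_mem _
    | exact zero_mem _
    | apply add_mem
    | apply sub_mem
    | apply mul_mem
    | apply neg_mem
    | apply inv_mem
    | apply div_mem
    | apply pow_mem))

section
variable {L : Type*} [Field L] (p : ℕ) [Fact p.Prime] [CharP L p]

theorem mem_pPow {a : L} : a ∈ pPow L p ↔ ∃ b : L, b ^ p = a := by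
  unfold pPow
  rw [RingHom.mem_fieldRange]
  simp [frobenius_def]

theorem pow_mem_pPow (b : L) : b ^ p ∈ pPow L p := (mem_pPow p).2 ⟨b, rfl⟩

/-- `L^p(x)`. -/
def pAdj (x : L) : Subfield L := Subfield.closure ((pPow L p : Set L) ∪ {x})

theorem pPow_le_pAdj (x : L) : pPow L p ≤ pAdj p x := fun _ ha =>
  Subfield.subset_closure (Or.inl ha)

theorem self_mem_pAdj (x : L) : x ∈ pAdj p x :=
  Subfield.subset_closure (Or.inr rfl)

theorem pAdj_le {x : L} {S : Subfield L} (hS : pPow L p ≤ S) (hx : x ∈ S) : pAdj p x ≤ S := by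
  unfold pAdj
  rw [Subfield.closure_le]
  rintro a (ha | ha)
  · exact hS ha
  · rw [Set.mem_singleton_iff] at ha; rw [ha]; exact hx

theorem pAdj_mono {x x' : L} (h : x' ∈ pAdj p x) : pAdj p x' ≤ pAdj p x :=
  pAdj_le p (pPow_le_pAdj p x) h

/-- `x` and `y` are `p`-independent: `x ∉ L^p` and `y ∉ L^p(x)`. -/
def PIndep (x y : L) : Prop := x ∉ pPow L p ∧ y ∉ pAdj p x

/-- equality up to a non-zero `p`-th power factor. -/
def Rel (a b : L) : Prop := ∃ e ∈ pPow L p, e ≠ 0 ∧ a = e * b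

variable {p}

theorem Rel.refl (a : L) : Rel p a a := ⟨1, one_mem _, one_ne_zero, (one_mul a).symm⟩

theorem Rel.of_eq {a b : L} (h : a = b) : Rel p a b := h ▸ Rel.refl a

theorem Rel.symm {a b : L} (h : Rel p a b) : Rel p b a := by
  obtain ⟨e, he, he0, rfl⟩ := h
  exact ⟨e⁻¹, inv_mem he, inv_ne_zero he0, by field_simp⟩

theorem Rel.trans {a b c : L} (h : Rel p a b) (h' : Rel p b c) : Rel p a c := by
  obtain ⟨e, he, he0, rfl⟩ := h
  obtain ⟨e', he', he0', rfl⟩ := h'
  exact ⟨e * e', mul_mem he he', mul_ne_zero he0 he0', by ring⟩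

theorem Rel.mul {a b c d : L} (h : Rel p a b) (h' : Rel p c d) : Rel p (a * c) (b * d) := by
  obtain ⟨e, he, he0, rfl⟩ := h
  obtain ⟨e', he', he0', rfl⟩ := h'
  exact ⟨e * e', mul_mem he he', mul_ne_zero he0 he0', by ring⟩

theorem Rel.pow {a b : L} (h : Rel p a b) (n : ℕ) : Rel p (a ^ n) (b ^ n) := by
  obtain ⟨e, he, he0, rfl⟩ := h
  exact ⟨e ^ n, pow_mem he n, pow_ne_zero n he0, by ring⟩

theorem Rel.ne_zero {a b : L} (h : Rel p a b) (hb : b ≠ 0) : a ≠ 0 := by
  obtain ⟨e, he, he0, rfl⟩ := h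
  exact mul_ne_zero he0 hb

theorem Rel.ne_zero' {a b : L} (h : Rel p a b) (ha : a ≠ 0) : b ≠ 0 := h.symm.ne_zero ha

theorem rel_mul_left {e : L} (he : e ∈ pPow L p) (he0 : e ≠ 0) (a : L) : Rel p (e * a) a :=
  ⟨e, he, he0, rfl⟩

theorem rel_mul_left' {e : L} (he : e ∈ pPow L p) (he0 : e ≠ 0) (a : L) : Rel p a (e * a) :=
  (rel_mul_left he he0 a).symm

theorem rel_neg (a : L) : Rel p (-a) a :=
  ⟨-1, neg_mem (one_mem _), neg_ne_zero.2 one_ne_zero, by ring⟩

theorem Rel.neg {a b : L} (h : Rel p a b) : Rel p (-a) (-b) :=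
  (rel_neg a).trans (h.trans (rel_neg b).symm)

/-- a non-zero element is related to `1` iff it is a `p`-th power. -/
theorem rel_one_iff {a : L} (ha : a ≠ 0) : Rel p a 1 ↔ a ∈ pPow L p := by
  constructor
  · rintro ⟨e, he, -, rfl⟩; simpa using he
  · intro h; exact ⟨a, h, ha, (mul_one a).symm⟩

theorem Rel.mem_pPow {a b : L} (h : Rel p a b) (hb : b ∈ pPow L p) : a ∈ pPow L p := by
  obtain ⟨e, he, -, rfl⟩ := h
  exact mul_mem he hb

theorem Rel.mem_pPow_iff {a b : L} (h : Rel p a b) : a ∈ pPow L p ↔ b ∈ pPow L p :=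
  ⟨h.symm.mem_pPow, h.mem_pPow⟩

theorem Rel.mem_pAdj {a b x : L} (h : Rel p a b) (hb : b ∈ pAdj p x) : a ∈ pAdj p x := by
  obtain ⟨e, he, -, rfl⟩ := h
  exact mul_mem (pPow_le_pAdj p x he) hb

theorem Rel.mem_pAdj_iff {a b x : L} (h : Rel p a b) : a ∈ pAdj p x ↔ b ∈ pAdj p x :=
  ⟨h.symm.mem_pAdj, h.mem_pAdj⟩

theorem Rel.pAdj_eq {x x' : L} (h : Rel p x x') : pAdj p x = pAdj p x' :=
  le_antisymm (pAdj_mono p (h.mem_pAdj (self_mem_pAdj p x')))
    (pAdj_mono p (h.symm.mem_pAdj (self_mem_pAdj p x)))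

theorem PIndep.congr {x y x' y' : L} (h : PIndep p x y) (hx : Rel p x x') (hy : Rel p y y') :
    PIndep p x' y' := by
  refine ⟨fun hx' => h.1 (hx.mem_pPow hx'), fun hy' => h.2 ?_⟩
  rw [hx.pAdj_eq]
  exact hy.mem_pAdj hy'

/-- the second element of a `p`-independent pair is not a `p`-th power. -/
theorem PIndep.right_notMem {x y : L} (h : PIndep p x y) : y ∉ pPow L p :=
  fun hy => h.2 (pPow_le_pAdj p x hy)

theorem PIndep.left_ne_zero {x y : L} (h : PIndep p x y) : x ≠ 0 := by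
  rintro rfl; exact h.1 (zero_mem _)

theorem PIndep.right_ne_zero {x y : L} (h : PIndep p x y) : y ≠ 0 := by
  rintro rfl; exact h.2 (zero_mem _)

/-- coefficient comparison in the `L^p`-independent family `1, z`. -/
theorem cc2 {z a b a' b' : L} (hz : z ∉ pPow L p) (ha : a ∈ pPow L p) (hb : b ∈ pPow L p)
    (ha' : a' ∈ pPow L p) (hb' : b' ∈ pPow L p) (h : a + b * z = a' + b' * z) :
    a = a' ∧ b = b' := by
  have hbb : b = b' := by
    by_contra hne
    have hne' : b - b' ≠ 0 := sub_ne_zero.2 hne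
    apply hz
    have : z = (a' - a) / (b - b') := by
      field_simp
      linear_combination h
    rw [this]
    ppm
  subst hbb
  exact ⟨by linear_combination h, rfl⟩

/-- coefficient comparison in the `L^p`-independent family `1, z, w` (`z, w` `p`-independent). -/
theorem cc3 {z w a b c a' b' c' : L} (hzw : PIndep p z w) (ha : a ∈ pPow L p)
    (hb : b ∈ pPow L p) (hc : c ∈ pPow L p) (ha' : a' ∈ pPow L p) (hb' : b' ∈ pPow L p)
    (hc' : c' ∈ pPow L p) (h : a + b * z + c * w = a' + b' * z + c' * w) :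
    a = a' ∧ b = b' ∧ c = c' := by
  have hcc : c = c' := by
    by_contra hne
    have hne' : c - c' ≠ 0 := sub_ne_zero.2 hne
    apply hzw.2
    have : w = ((a' - a) + (b' - b) * z) / (c - c') := by
      field_simp
      linear_combination h
    rw [this]
    have hz := self_mem_pAdj p z
    have := pPow_le_pAdj p z ha
    have := pPow_le_pAdj p z hb
    have := pPow_le_pAdj p z hc
    have := pPow_le_pAdj p z ha'
    have := pPow_le_pAdj p z hb'
    have := pPow_le_pAdj p z hc'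
    ppm
  subst hcc
  have := cc2 hzw.1 ha hb ha' hb' (by linear_combination h)
  exact ⟨this.1, this.2, rfl⟩

/-- `a + b z ∈ L^p` with `z ∉ L^p` forces `b = 0`. -/
theorem cc2_mem {z a b : L} (hz : z ∉ pPow L p) (ha : a ∈ pPow L p) (hb : b ∈ pPow L p)
    (h : a + b * z ∈ pPow L p) : b = 0 :=
  (cc2 hz ha hb h (zero_mem _) (by ring)).2

section Exchange

/-- The exchange property of `L^p(x)`. -/
def Exch (L : Type*) [Field L] (p : ℕ) [Fact p.Prime] [CharP L p] : Prop :=
  ∀ x x' : L, x' ∈ pAdj p x → x' ∉ pPow L p → x ∈ pAdj p x'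

/-- `[L : L^p] ≥ p^2`, in the form: no `L^p(x)` is all of `L`. -/
def Big (L : Type*) [Field L] (p : ℕ) [Fact p.Prime] [CharP L p] : Prop :=
  ∀ x : L, ∃ y : L, y ∉ pAdj p x

theorem PIndep.symm (hE : Exch L p) {x y : L} (h : PIndep p x y) : PIndep p y x :=
  ⟨h.right_notMem, fun hx => h.2 (hE y x hx h.1)⟩

theorem pAdj_eq_of_mem (hE : Exch L p) {x x' : L} (h : x' ∈ pAdj p x) (h' : x' ∉ pPow L p) :
    pAdj p x' = pAdj p x :=
  le_antisymm (pAdj_mono p h) (pAdj_mono p (hE x x' h h'))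

/-- `L` is not the union of two subfields `L^p(x)`, `L^p(x')`. -/
theorem exists_notMem_two (hB : Big L p) (x x' : L) :
    ∃ y : L, y ∉ pAdj p x ∧ y ∉ pAdj p x' := by
  obtain ⟨y₁, h₁⟩ := hB x
  obtain ⟨y₂, h₂⟩ := hB x'
  by_cases h₁' : y₁ ∈ pAdj p x'
  · by_cases h₂' : y₂ ∈ pAdj p x
    · refine ⟨y₁ + y₂, fun h => h₁ ?_, fun h => h₂ ?_⟩
      · have : y₁ = (y₁ + y₂) - y₂ := by ring
        rw [this]; exact sub_mem h h₂'
      · have : y₂ = (y₁ + y₂) - y₁ := by ring
        rw [this]; exact sub_mem h h₁'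
    · exact ⟨y₂, h₂', h₂⟩
  · exact ⟨y₁, h₁, h₁'⟩

end Exchange

end

end Crest.Agent.Helper75.S0010
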