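/-
S0010 (row 9), work package AS (abstract assembly), helper75.
Part B: from the normalised line lemma (m = 1) to a ring homomorphism.
-/
import Crest.Agent.Helper75.S0010.Basic

set_option autoImplicit false

namespace Crest.Agent.Helper75.S0010

variable {K L : Type*} [Field K] [Field L] (p : ℕ) [Fact p.Prime] [CharP K p] [CharP L p]

/-- `θ : K → L` is a set-theoretic lift of a group isomorphism `Kˣ/p → Lˣ/p`. -/
structure IsLift (θ : K → L) : Prop where
  ne_zero : ∀ u, u ≠ 0 → θ u ≠ 0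
  mul : ∀ u v, u ≠ 0 → v ≠ 0 → Rel p (θ (u * v)) (θ u * θ v)
  rel_iff : ∀ u v, u ≠ 0 → v ≠ 0 → (Rel p (θ u) (θ v) ↔ Rel p u v)
  surj : ∀ y : L, y ≠ 0 → ∃ g : K, g ≠ 0 ∧ Rel p (θ g) y

/-- The conclusion of the line lemma for the pair `(f, g)` with exponent `m`. -/
def LLat (θ : K → L) (m : ℕ) (f g : K) : Prop :=
  ∃ P Q : L, ∃ lam : K → L, (∀ c ∈ pPow K p, lam c ∈ pPow L p) ∧ lam 0 = 0 ∧ lam 1 = 1 ∧
    ∀ c ∈ pPow K p, Rel p (θ (f + c)) ((P + lam c) ^ m) ∧ Rel p (θ (g - c)) ((Q - lam c) ^ m) ∧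
      Rel p (θ (f + g)) ((P + Q) ^ m)

/-- All hypotheses of Part B. -/
structure Ctx (θ : K → L) : Prop extends IsLift p θ where
  exch : Exch L p
  big : Big L p
  ll : ∀ f g, f ≠ 0 → g ≠ 0 → PIndep p (θ f) (θ g) → LLat p θ 1 f g

variable {p}

theorem rel_of_mem {a b : L} (ha : a ∈ pPow L p) (hb : b ∈ pPow L p) (ha0 : a ≠ 0)
    (hb0 : b ≠ 0) : Rel p a b :=
  ⟨a / b, div_mem ha hb, div_ne_zero ha0 hb0, by field_simp⟩

theorem ne_zero_of_notMem {f : K} (hf : f ∉ pPow K p) : f ≠ 0 := by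
  rintro rfl; exact hf (zero_mem _)

theorem add_notMem {f c : K} (hf : f ∉ pPow K p) (hc : c ∈ pPow K p) : f + c ∉ pPow K p := by
  intro h
  apply hf
  have : f = (f + c) - c := by ring
  rw [this]; exact sub_mem h hc

theorem add_ne_zero_of_notMem {f c : K} (hf : f ∉ pPow K p) (hc : c ∈ pPow K p) : f + c ≠ 0 :=
  ne_zero_of_notMem (add_notMem hf hc)

theorem sub_notMem {f c : K} (hf : f ∉ pPow K p) (hc : c ∈ pPow K p) : f - c ∉ pPow K p := by
  rw [sub_eq_add_neg]; exact add_notMem hf (neg_mem hc)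

variable {θ : K → L}

namespace Ctx

theorem theta_one_mem (h : Ctx p θ) : θ 1 ∈ pPow L p := by
  obtain ⟨e, he, he0, hh⟩ := h.mul 1 1 one_ne_zero one_ne_zero
  have h1 : θ 1 ≠ 0 := h.ne_zero 1 one_ne_zero
  rw [mul_one] at hh
  have h2 : e * θ 1 = 1 := by
    apply mul_right_cancel₀ h1
    linear_combination -hh
  have h3 : θ 1 = e⁻¹ := eq_inv_of_mul_eq_one_right h2
  rw [h3]; exact inv_mem he

theorem theta_mem_iff (h : Ctx p θ) {u : K} (hu : u ≠ 0) : θ u ∈ pPow L p ↔ u ∈ pPow K p := by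
  rw [← rel_one_iff hu, ← h.rel_iff u 1 hu one_ne_zero]
  constructor
  · intro hm
    exact rel_of_mem hm h.theta_one_mem (h.ne_zero u hu) (h.ne_zero 1 one_ne_zero)
  · intro hr; exact hr.mem_pPow h.theta_one_mem

theorem theta_notMem (h : Ctx p θ) {f : K} (hf : f ∉ pPow K p) : θ f ∉ pPow L p :=
  fun hm => hf ((h.theta_mem_iff (ne_zero_of_notMem hf)).1 hm)

theorem theta_one_rel (h : Ctx p θ) : Rel p (θ 1) 1 :=
  (rel_one_iff (h.ne_zero 1 one_ne_zero)).2 h.theta_one_mem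

/-- `θ` respects `Rel`. -/
theorem theta_rel (h : Ctx p θ) {u v : K} (hu : u ≠ 0) (huv : Rel p u v) :
    Rel p (θ u) (θ v) :=
  (h.rel_iff u v hu (huv.ne_zero' hu)).2 huv

theorem theta_neg (h : Ctx p θ) {u : K} (hu : u ≠ 0) : Rel p (θ (-u)) (θ u) :=
  h.theta_rel (neg_ne_zero.2 hu) (rel_neg u)

end Ctx

/-- generic pairs. -/
def Gen (p : ℕ) [Fact p.Prime] [CharP K p] [CharP L p] (θ : K → L) (f g : K) : Prop :=
  f ≠ 0 ∧ g ≠ 0 ∧ PIndep p (θ f) (θ g)

namespace Gen

variable {f g : K}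

theorem symm (h : Ctx p θ) (hfg : Gen p θ f g) : Gen p θ g f :=
  ⟨hfg.2.1, hfg.1, hfg.2.2.symm h.exch⟩

theorem notMem_left (h : Ctx p θ) (hfg : Gen p θ f g) : f ∉ pPow K p :=
  fun hf => hfg.2.2.1 ((h.theta_mem_iff hfg.1).2 hf)

theorem notMem_right (h : Ctx p θ) (hfg : Gen p θ f g) : g ∉ pPow K p :=
  (hfg.symm h).notMem_left h

end Gen

namespace Ctx

theorem exists_avoid (h : Ctx p θ) (x x' : L) :
    ∃ g : K, g ≠ 0 ∧ θ g ∉ pAdj p x ∧ θ g ∉ pAdj p x' := by
  obtain ⟨y, hy, hy'⟩ := exists_notMem_two h.big x x'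
  have hy0 : y ≠ 0 := by rintro rfl; exact hy (zero_mem _)
  obtain ⟨g, hg0, hg⟩ := h.surj y hy0
  exact ⟨g, hg0, fun hm => hy (hg.symm.mem_pAdj hm), fun hm => hy' (hg.symm.mem_pAdj hm)⟩

theorem exists_partner₂ (h : Ctx p θ) {f f' : K} (hf : f ∉ pPow K p) (hf' : f' ∉ pPow K p) :
    ∃ g : K, Gen p θ f g ∧ Gen p θ f' g := by
  obtain ⟨g, hg0, hg, hg'⟩ := h.exists_avoid (θ f) (θ f')
  exact ⟨g, ⟨ne_zero_of_notMem hf, hg0, h.theta_notMem hf, hg⟩,
    ⟨ne_zero_of_notMem hf', hg0, h.theta_notMem hf', hg'⟩⟩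

theorem exists_partner (h : Ctx p θ) {f : K} (hf : f ∉ pPow K p) : ∃ g : K, Gen p θ f g := by
  obtain ⟨g, hg, -⟩ := h.exists_partner₂ hf hf
  exact ⟨g, hg⟩

/-- `K` is not perfect. -/
theorem exists_notMem (h : Ctx p θ) : ∃ f : K, f ∉ pPow K p := by
  obtain ⟨g, hg0, hg, -⟩ := h.exists_avoid (1 : L) 1
  exact ⟨g, fun hm => hg (pPow_le_pAdj p 1 ((h.theta_mem_iff hg0).2 hm))⟩

end Ctx

/-- `z` is the normalised lift of the class of `θ f`. -/
def IsA (p : ℕ) [Fact p.Prime] [CharP K p] [CharP L p] (θ : K → L) (f : K) (z : L) : Prop :=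
  Rel p (θ f) z ∧ Rel p (θ (f + 1)) (z + 1)

theorem IsA.notMem (h : Ctx p θ) {f : K} {z : L} (hf : f ∉ pPow K p) (hz : IsA p θ f z) :
    z ∉ pPow L p :=
  fun hm => h.theta_notMem hf (hz.1.mem_pPow hm)

theorem IsA.unique (h : Ctx p θ) {f : K} {z z' : L} (hf : f ∉ pPow K p) (hz : IsA p θ f z)
    (hz' : IsA p θ f z') : z = z' := by
  obtain ⟨a, ha, ha0, h1⟩ := hz'.1.symm.trans hz.1
  obtain ⟨b, hb, hb0, h2⟩ := hz'.2.symm.trans hz.2
  have hcc := cc2 (hz.notMem h hf) (one_mem _) ha hb hb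
    (show 1 + a * z = b + b * z by rw [← h1]; linear_combination h2)
  have ha1 : a = 1 := hcc.2.trans hcc.1.symm
  rw [h1, ha1, one_mul]

theorem Ctx.exists_isA (h : Ctx p θ) {f : K} (hf : f ∉ pPow K p) : ∃ z, IsA p θ f z := by
  obtain ⟨g, hg⟩ := h.exists_partner hf
  obtain ⟨P, Q, lam, -, h0, h1, hc⟩ := h.ll f g hg.1 hg.2.1 hg.2.2
  refine ⟨P, ?_, ?_⟩
  · have := (hc 0 (zero_mem _)).1
    simpa [h0] using this
  · have := (hc 1 (one_mem _)).1
    simpa [h1] using this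

open Classical in
/-- the normalised lift `α₀ f` (meaningful for `f ∉ K^p`). -/
noncomputable def alpha0 (p : ℕ) [Fact p.Prime] [CharP K p] [CharP L p] (θ : K → L) (f : K) : L :=
  if h : ∃ z, IsA p θ f z then h.choose else 0

theorem Ctx.alpha0_spec (h : Ctx p θ) {f : K} (hf : f ∉ pPow K p) : IsA p θ f (alpha0 p θ f) := by
  have hex := h.exists_isA hf
  unfold alpha0
  rw [dif_pos hex]
  exact hex.choose_spec

theorem Ctx.alpha0_eq (h : Ctx p θ) {f : K} {z : L} (hf : f ∉ pPow K p) (hz : IsA p θ f z) :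
    alpha0 p θ f = z :=
  IsA.unique h hf (h.alpha0_spec hf) hz

theorem Ctx.alpha0_notMem (h : Ctx p θ) {f : K} (hf : f ∉ pPow K p) :
    alpha0 p θ f ∉ pPow L p :=
  (h.alpha0_spec hf).notMem h hf

theorem Ctx.alpha0_rel (h : Ctx p θ) {f : K} (hf : f ∉ pPow K p) :
    Rel p (θ f) (alpha0 p θ f) :=
  (h.alpha0_spec hf).1

/-- uniqueness of the additive constant. -/
theorem add_const_unique {a μ μ' : L} (ha : a ∉ pPow L p) (hμ : μ ∈ pPow L p)
    (hμ' : μ' ∈ pPow L p) (hr : Rel p (a + μ) (a + μ')) : μ = μ' := by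
  obtain ⟨e, he, he0, h1⟩ := hr
  have hcc := cc2 ha hμ (one_mem _) (mul_mem he hμ') he
    (show μ + 1 * a = e * μ' + e * a by linear_combination h1)
  rw [hcc.1, ← hcc.2, one_mul]

open Classical in
/-- the additive constant `λ^f_c`. -/
noncomputable def lamF (p : ℕ) [Fact p.Prime] [CharP K p] [CharP L p] (θ : K → L) (f c : K) : L :=
  if h : ∃ μ, μ ∈ pPow L p ∧ Rel p (θ (f + c)) (alpha0 p θ f + μ) then h.choose else 0

/-- line-lemma data for a generic pair, in terms of `alpha0`. -/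
theorem Ctx.ll_data (h : Ctx p θ) {f g : K} (hfg : Gen p θ f g) :
    ∃ Q : L, ∃ lam : K → L, (∀ c ∈ pPow K p, lam c ∈ pPow L p) ∧ lam 0 = 0 ∧ lam 1 = 1 ∧
    ∀ c ∈ pPow K p, Rel p (θ (f + c)) (alpha0 p θ f + lam c) ∧ Rel p (θ (g - c)) (Q - lam c) ∧
      Rel p (θ (f + g)) (alpha0 p θ f + Q) := by
  obtain ⟨P, Q, lam, hl, h0, h1, hc⟩ := h.ll f g hfg.1 hfg.2.1 hfg.2.2
  have hP : IsA p θ f P := by
    refine ⟨?_, ?_⟩
    · have := (hc 0 (zero_mem _)).1
      simpa [h0] using this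
    · have := (hc 1 (one_mem _)).1
      simpa [h1] using this
  have hPe := h.alpha0_eq (hfg.notMem_left h) hP
  refine ⟨Q, lam, hl, h0, h1, fun c hcF => ?_⟩
  have := hc c hcF
  simp only [pow_one] at this
  rw [hPe]; exact this

theorem Ctx.exists_lam (h : Ctx p θ) {f c : K} (hf : f ∉ pPow K p) (hc : c ∈ pPow K p) :
    ∃ μ, μ ∈ pPow L p ∧ Rel p (θ (f + c)) (alpha0 p θ f + μ) := by
  obtain ⟨g, hg⟩ := h.exists_partner hf
  obtain ⟨Q, lam, hl, -, -, hh⟩ := h.ll_data hg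
  exact ⟨lam c, hl c hc, (hh c hc).1⟩

theorem Ctx.lamF_spec (h : Ctx p θ) {f c : K} (hf : f ∉ pPow K p) (hc : c ∈ pPow K p) :
    lamF p θ f c ∈ pPow L p ∧ Rel p (θ (f + c)) (alpha0 p θ f + lamF p θ f c) := by
  have hex := h.exists_lam hf hc
  unfold lamF
  rw [dif_pos hex]
  exact hex.choose_spec

theorem Ctx.lamF_eq (h : Ctx p θ) {f c : K} {μ : L} (hf : f ∉ pPow K p) (hc : c ∈ pPow K p)
    (hμ : μ ∈ pPow L p) (hr : Rel p (θ (f + c)) (alpha0 p θ f + μ)) : lamF p θ f c = μ :=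
  add_const_unique (h.alpha0_notMem hf) (h.lamF_spec hf hc).1 hμ
    ((h.lamF_spec hf hc).2.symm.trans hr)

theorem Ctx.lamF_zero (h : Ctx p θ) {f : K} (hf : f ∉ pPow K p) : lamF p θ f 0 = 0 :=
  h.lamF_eq hf (zero_mem _) (zero_mem _) (by simpa using h.alpha0_rel hf)

theorem Ctx.lamF_one (h : Ctx p θ) {f : K} (hf : f ∉ pPow K p) : lamF p θ f 1 = 1 :=
  h.lamF_eq hf (one_mem _) (one_mem _) (h.alpha0_spec hf).2

/-- line-lemma data for a generic pair, in terms of `alpha0` and `lamF`. -/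
theorem Ctx.ll_data' (h : Ctx p θ) {f g : K} (hfg : Gen p θ f g) :
    ∃ Q : L, (∀ c ∈ pPow K p, Rel p (θ (g - c)) (Q - lamF p θ f c)) ∧
      Rel p (θ (f + g)) (alpha0 p θ f + Q) := by
  obtain ⟨Q, lam, hl, h0, h1, hc⟩ := h.ll_data hfg
  refine ⟨Q, fun c hcF => ?_, (hc 0 (zero_mem _)).2.2⟩
  rw [h.lamF_eq (hfg.notMem_left h) hcF (hl c hcF) (hc c hcF).1]
  exact (hc c hcF).2.1

/-- the line through `u` and `v`. -/
theorem Ctx.line (h : Ctx p θ) {u v : K} {u' v' : L} (hu : u ≠ 0) (hv : v ≠ 0)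
    (huv : v / u ∉ pPow K p) (hu' : Rel p (θ u) u') (hv' : Rel p (θ v) v') :
    ∃ e ∈ pPow L p, e ≠ 0 ∧ Rel p (θ (u + v)) (u' + e * v') := by
  have hz := h.alpha0_spec huv
  set z := alpha0 p θ (v / u) with hzdef
  have hne : v / u + 1 ≠ 0 := add_ne_zero_of_notMem huv (one_mem _)
  have hvu : v / u ≠ 0 := ne_zero_of_notMem huv
  have h1 : Rel p (θ (u + v)) (u' * (z + 1)) := by
    have : u + v = u * (v / u + 1) := by field_simp; ring
    rw [this]
    exact (h.mul u (v / u + 1) hu hne).trans (hu'.mul hz.2)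
  have h2 : Rel p (u' * z) v' := by
    have : Rel p (θ v) (u' * z) := by
      have hv2 : v = u * (v / u) := by field_simp
      rw [hv2]
      exact (h.mul u (v / u) hu hvu).trans (hu'.mul hz.1)
    exact this.symm.trans hv'
  obtain ⟨e, he, he0, h3⟩ := h2
  refine ⟨e, he, he0, ?_⟩
  have : u' * (z + 1) = u' + e * v' := by rw [← h3]; ring
  rw [← this]; exact h1

/-- additivity of `alpha0` on generic pairs (A4). -/
theorem Ctx.gen_add (h : Ctx p θ) {f g : K} (hfg : Gen p θ f g) :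
    Rel p (θ (f + g)) (alpha0 p θ f + alpha0 p θ g) ∧
    alpha0 p θ (f + g) = alpha0 p θ f + alpha0 p θ g ∧
    (∀ c ∈ pPow K p, Rel p (θ (g - c)) (alpha0 p θ g - lamF p θ f c)) ∧
    f + g ∉ pPow K p := by
  have hf := hfg.notMem_left h
  have hg := hfg.notMem_right h
  have hfa := h.alpha0_spec hf
  have hgb := h.alpha0_spec hg
  obtain ⟨Q, hQ, hfgQ⟩ := h.ll_data' hfg
  have hQ0 : Rel p (θ g) Q := by
    have := hQ 0 (zero_mem _)
    simpa [h.lamF_zero hf] using this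
  generalize alpha0 p θ f = a at hfa hfgQ ⊢
  generalize alpha0 p θ g = b at hgb ⊢
  have hab : PIndep p a b := hfg.2.2.congr hfa.1 hgb.1
  have hbA : b ∉ pAdj p a := hab.2
  obtain ⟨μ, hμ, hμ0, hQb⟩ := hQ0.symm.trans hgb.1
  subst hQb
  have hfg0 : f + g ≠ 0 := by
    intro h0
    have hg' : g = -f := by linear_combination h0
    apply hfg.2.2.2
    rw [hg']
    exact (h.theta_neg hfg.1).mem_pAdj (self_mem_pAdj p _)
  have hsum : a + μ * b ∉ pPow L p := by
    intro hm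
    apply hbA
    have : b = ((a + μ * b) - a) / μ := by field_simp; ring
    rw [this]
    have h1 := pPow_le_pAdj p a hm
    have h2 := self_mem_pAdj p a
    have h3 := pPow_le_pAdj p a hμ
    exact div_mem (sub_mem h1 h2) h3
  have hfgF : f + g ∉ pPow K p :=
    fun hm => hsum (hfgQ.symm.mem_pPow ((h.theta_mem_iff hfg0).2 hm))
  have hf1 : f + 1 ≠ 0 := add_ne_zero_of_notMem hf (one_mem _)
  have hg1 : g + 1 ≠ 0 := add_ne_zero_of_notMem hg (one_mem _)
  have hl1 : g / (f + 1) ∉ pPow K p := by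
    intro hm
    apply hbA
    have hr : Rel p g (f + 1) := ⟨g / (f + 1), hm, div_ne_zero hfg.2.1 hf1, by field_simp⟩
    have hr' : Rel p b (a + 1) := hgb.1.symm.trans ((h.theta_rel hfg.2.1 hr).trans hfa.2)
    exact hr'.mem_pAdj (add_mem (self_mem_pAdj p a) (one_mem _))
  obtain ⟨e₁, he₁, he₁0, hL1⟩ := h.line hf1 hfg.2.1 hl1 hfa.2 hgb.1
  have hl2 : f / (g + 1) ∉ pPow K p := by
    intro hm
    apply hbA
    have hr : Rel p f (g + 1) := ⟨f / (g + 1), hm, div_ne_zero hfg.1 hg1, by field_simp⟩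
    have hr' : Rel p a (b + 1) := hfa.1.symm.trans ((h.theta_rel hfg.1 hr).trans hgb.2)
    obtain ⟨e, he, he0, hab1⟩ := hr'
    have : b = a / e - 1 := by field_simp; linear_combination -hab1
    rw [this]
    exact sub_mem (div_mem (self_mem_pAdj p a) (pPow_le_pAdj p a he)) (one_mem _)
  obtain ⟨e₂, he₂, he₂0, hL2⟩ := h.line hg1 hfg.1 hl2 hgb.2 hfa.1
  have hl3 : 1 / (f + g) ∉ pPow K p := by
    intro hm
    apply hfgF
    have : f + g = (1 / (f + g))⁻¹ := by simp
    rw [this]; exact inv_mem hm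
  obtain ⟨e₃, he₃, he₃0, hL3⟩ := h.line hfg0 one_ne_zero hl3 hfgQ h.theta_one_rel
  have hw2 : g + 1 + f = f + 1 + g := by ring
  have hw3 : f + g + 1 = f + 1 + g := by ring
  rw [hw2] at hL2
  rw [hw3] at hL3
  obtain ⟨s, hs, hs0, h12⟩ := hL1.symm.trans hL2
  have c12 := cc3 hab (one_mem _) (one_mem _) he₁ hs (mul_mem hs he₂) hs
    (show 1 + 1 * a + e₁ * b = s + (s * e₂) * a + s * b by linear_combination h12)
  have he₁1 : e₁ = 1 := c12.2.2.trans c12.1.symm
  subst he₁1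
  obtain ⟨s', hs', hs'0, h13⟩ := hL1.symm.trans hL3
  have c13 := cc3 hab (one_mem _) (one_mem _) (one_mem _) (mul_mem hs' he₃) hs' (mul_mem hs' hμ)
    (show 1 + 1 * a + 1 * b = s' * e₃ + s' * a + (s' * μ) * b by linear_combination h13)
  have hs'1 : s' = 1 := c13.2.1.symm
  rw [hs'1, one_mul, one_mul] at c13
  have hμ1 : μ = 1 := c13.2.2.symm
  have he₃1 : e₃ = 1 := c13.1.symm
  subst hμ1 he₃1
  simp only [one_mul, mul_one] at hfgQ hQ hL3
  rw [← hw3] at hL3
  exact ⟨hfgQ, h.alpha0_eq hfgF ⟨hfgQ, hL3⟩, hQ, hfgF⟩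

theorem Ctx.lam_neg_of_gen (h : Ctx p θ) {f g c : K} (hfg : Gen p θ f g)
    (hc : c ∈ pPow K p) : lamF p θ g (-c) = - lamF p θ f c := by
  have hg := hfg.notMem_right h
  have hf := hfg.notMem_left h
  apply h.lamF_eq hg (neg_mem hc) (neg_mem (h.lamF_spec hf hc).1)
  have := (h.gen_add hfg).2.2.1 c hc
  simpa only [sub_eq_add_neg] using this

theorem Ctx.gen_add_right (h : Ctx p θ) {f g : K} (hfg : Gen p θ f g) :
    Gen p θ f (f + g) := by
  have hf := hfg.notMem_left h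
  have hg := hfg.notMem_right h
  have hadd := h.gen_add hfg
  have hfa := h.alpha0_rel hf
  have hgb := h.alpha0_rel hg
  have hab : PIndep p (alpha0 p θ f) (alpha0 p θ g) := hfg.2.2.congr hfa hgb
  refine ⟨hfg.1, ne_zero_of_notMem hadd.2.2.2, ?_⟩
  have : PIndep p (alpha0 p θ f) (alpha0 p θ f + alpha0 p θ g) := by
    refine ⟨hab.1, fun hm => hab.2 ?_⟩
    have : alpha0 p θ g = (alpha0 p θ f + alpha0 p θ g) - alpha0 p θ f := by ring
    rw [this]; exact sub_mem hm (self_mem_pAdj p _)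
  exact this.congr hfa.symm hadd.1.symm

theorem Ctx.lam_eq_of_gen (h : Ctx p θ) {f g c : K} (hfg : Gen p θ f g)
    (hc : c ∈ pPow K p) : lamF p θ f c = lamF p θ g c := by
  have h1 := h.lam_neg_of_gen (h.gen_add_right hfg) hc
  have h2 := h.lam_neg_of_gen (h.gen_add_right (hfg.symm h)) hc
  rw [add_comm g f] at h2
  exact neg_injective (h1.symm.trans h2)

theorem Ctx.lam_eq (h : Ctx p θ) {f f' c : K} (hf : f ∉ pPow K p) (hf' : f' ∉ pPow K p)
    (hc : c ∈ pPow K p) : lamF p θ f c = lamF p θ f' c := by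
  obtain ⟨g, hg, hg'⟩ := h.exists_partner₂ hf hf'
  rw [h.lam_eq_of_gen hg hc, h.lam_eq_of_gen hg' hc]

theorem Ctx.lam_odd (h : Ctx p θ) {f c : K} (hf : f ∉ pPow K p) (hc : c ∈ pPow K p) :
    lamF p θ f (-c) = - lamF p θ f c := by
  obtain ⟨g, hg⟩ := h.exists_partner hf
  rw [h.lam_eq_of_gen hg (neg_mem hc)]
  exact h.lam_neg_of_gen hg hc

theorem Ctx.alpha0_add_const (h : Ctx p θ) {f c : K} (hf : f ∉ pPow K p)
    (hc : c ∈ pPow K p) : alpha0 p θ (f + c) = alpha0 p θ f + lamF p θ f c := by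
  obtain ⟨g, hfg⟩ := h.exists_partner hf
  have hg := hfg.notMem_right h
  have hadd := h.gen_add hfg
  have hfa := h.alpha0_rel hf
  have hgb := h.alpha0_rel hg
  have hab : PIndep p (alpha0 p θ f) (alpha0 p θ g) := hfg.2.2.congr hfa hgb
  have hlam := h.lamF_spec hf hc
  have hfc : f + c ∉ pPow K p := add_notMem hf hc
  have hgc : g - c ∉ pPow K p := sub_notMem hg hc
  have hA := h.alpha0_rel hfc
  have hB := h.alpha0_rel hgc
  have hpi : PIndep p (alpha0 p θ f + lamF p θ f c) (alpha0 p θ g - lamF p θ f c) := by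
    refine ⟨fun hm => hab.1 ?_, fun hm => hab.2 ?_⟩
    · have : alpha0 p θ f = (alpha0 p θ f + lamF p θ f c) - lamF p θ f c := by ring
      rw [this]; exact sub_mem hm hlam.1
    · have hle : pAdj p (alpha0 p θ f + lamF p θ f c) ≤ pAdj p (alpha0 p θ f) :=
        pAdj_mono p (add_mem (self_mem_pAdj p _) (pPow_le_pAdj p _ hlam.1))
      have : alpha0 p θ g = (alpha0 p θ g - lamF p θ f c) + lamF p θ f c := by ring
      rw [this]; exact add_mem (hle hm) (pPow_le_pAdj p _ hlam.1)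
  have hgen : Gen p θ (f + c) (g - c) :=
    ⟨ne_zero_of_notMem hfc, ne_zero_of_notMem hgc,
      hpi.congr hlam.2.symm (hadd.2.2.1 c hc).symm⟩
  have hadd2 := (h.gen_add hgen).2.1
  have hfg_eq : f + c + (g - c) = f + g := by ring
  rw [hfg_eq, hadd.2.1] at hadd2
  obtain ⟨e, he, he0, hAe⟩ := hA.symm.trans hlam.2
  obtain ⟨e', he', he'0, hBe⟩ := hB.symm.trans (hadd.2.2.1 c hc)
  have hcc := cc3 hab (zero_mem _) (one_mem _) (one_mem _)
    (sub_mem (mul_mem he hlam.1) (mul_mem he' hlam.1)) he he'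
    (show 0 + 1 * alpha0 p θ f + 1 * alpha0 p θ g
        = (e * lamF p θ f c - e' * lamF p θ f c) + e * alpha0 p θ f + e' * alpha0 p θ g by
      linear_combination hadd2 + hAe + hBe)
  rw [hAe, ← hcc.2.1, one_mul]

open Classical in
/-- the common additive constant `τ c` (meaningful for `c ∈ K^p`). -/
noncomputable def tau (p : ℕ) [Fact p.Prime] [CharP K p] [CharP L p] (θ : K → L) (c : K) : L :=
  if h : ∃ f : K, f ∉ pPow K p then lamF p θ h.choose c else 0

theorem Ctx.tau_eq (h : Ctx p θ) {f c : K} (hf : f ∉ pPow K p) (hc : c ∈ pPow K p) :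
    lamF p θ f c = tau p θ c := by
  have hex := h.exists_notMem
  unfold tau
  rw [dif_pos hex]
  exact h.lam_eq hf hex.choose_spec hc

theorem Ctx.tau_mem (h : Ctx p θ) {c : K} (hc : c ∈ pPow K p) : tau p θ c ∈ pPow L p := by
  obtain ⟨f, hf⟩ := h.exists_notMem
  rw [← h.tau_eq hf hc]; exact (h.lamF_spec hf hc).1

theorem Ctx.tau_zero (h : Ctx p θ) : tau p θ 0 = 0 := by
  obtain ⟨f, hf⟩ := h.exists_notMem
  rw [← h.tau_eq hf (zero_mem _)]; exact h.lamF_zero hf

theorem Ctx.tau_one (h : Ctx p θ) : tau p θ 1 = 1 := by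
  obtain ⟨f, hf⟩ := h.exists_notMem
  rw [← h.tau_eq hf (one_mem _)]; exact h.lamF_one hf

theorem Ctx.tau_neg (h : Ctx p θ) {c : K} (hc : c ∈ pPow K p) : tau p θ (-c) = - tau p θ c := by
  obtain ⟨f, hf⟩ := h.exists_notMem
  rw [← h.tau_eq hf hc, ← h.tau_eq hf (neg_mem hc)]; exact h.lam_odd hf hc

theorem Ctx.tau_rel (h : Ctx p θ) {f c : K} (hf : f ∉ pPow K p) (hc : c ∈ pPow K p) :
    Rel p (θ (f + c)) (alpha0 p θ f + tau p θ c) := by
  rw [← h.tau_eq hf hc]; exact (h.lamF_spec hf hc).2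

theorem Ctx.alpha0_add (h : Ctx p θ) {f c : K} (hf : f ∉ pPow K p) (hc : c ∈ pPow K p) :
    alpha0 p θ (f + c) = alpha0 p θ f + tau p θ c := by
  rw [← h.tau_eq hf hc]; exact h.alpha0_add_const hf hc

theorem Ctx.tau_add (h : Ctx p θ) {c c' : K} (hc : c ∈ pPow K p) (hc' : c' ∈ pPow K p) :
    tau p θ (c + c') = tau p θ c + tau p θ c' := by
  obtain ⟨f, hf⟩ := h.exists_notMem
  have h1 := h.alpha0_add hf (add_mem hc hc')
  have h2 := h.alpha0_add (add_notMem hf hc) hc'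
  rw [h.alpha0_add hf hc, add_assoc f c c'] at h2
  linear_combination h2 - h1

theorem Ctx.tau_ne_zero (h : Ctx p θ) {c : K} (hc : c ∈ pPow K p) (hc0 : c ≠ 0) :
    tau p θ c ≠ 0 := by
  obtain ⟨f, hf⟩ := h.exists_notMem
  intro h0
  have h1 := h.tau_rel hf hc
  rw [h0, add_zero] at h1
  have h2 : Rel p (θ (f + c)) (θ f) := h1.trans (h.alpha0_rel hf).symm
  have hfc : f + c ≠ 0 := add_ne_zero_of_notMem hf hc
  obtain ⟨e, he, he0, h3⟩ := (h.rel_iff (f + c) f hfc (ne_zero_of_notMem hf)).1 h2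
  have hcc := cc2 hf hc (one_mem _) (zero_mem _) he
    (show c + 1 * f = 0 + e * f by linear_combination h3)
  exact hc0 hcc.1

open Classical in
/-- the map `α` on all of `K`. -/
noncomputable def alpha (p : ℕ) [Fact p.Prime] [CharP K p] [CharP L p] (θ : K → L) (u : K) : L :=
  if u ∈ pPow K p then tau p θ u else alpha0 p θ u

theorem alpha_of_mem {u : K} (hu : u ∈ pPow K p) : alpha p θ u = tau p θ u := by
  unfold alpha; rw [if_pos hu]

theorem alpha_of_notMem {u : K} (hu : u ∉ pPow K p) : alpha p θ u = alpha0 p θ u := by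
  unfold alpha; rw [if_neg hu]

theorem Ctx.alpha0_neg (h : Ctx p θ) {f : K} (hf : f ∉ pPow K p) :
    alpha0 p θ (-f) = - alpha0 p θ f := by
  have hnf : -f ∉ pPow K p := fun hm => hf (by simpa using neg_mem hm)
  have hf0 := ne_zero_of_notMem hf
  have hfa := h.alpha0_rel hf
  apply h.alpha0_eq hnf
  refine ⟨(h.theta_neg hf0).trans (hfa.trans (rel_neg _).symm), ?_⟩
  have hm1 : (-1 : K) ∈ pPow K p := neg_mem (one_mem _)
  have h1 : -f + 1 = -(f + -1) := by ring
  rw [h1]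
  have h2 := h.tau_rel hf hm1
  rw [h.tau_neg (one_mem _), h.tau_one] at h2
  refine (h.theta_neg (add_ne_zero_of_notMem hf hm1)).trans (h2.trans ?_)
  have h3 : alpha0 p θ f + -1 = -(-alpha0 p θ f + 1) := by ring
  rw [h3]; exact rel_neg _

theorem Ctx.alpha_add (h : Ctx p θ) (u v : K) : alpha p θ (u + v) = alpha p θ u + alpha p θ v := by
  by_cases hu : u ∈ pPow K p
  · by_cases hv : v ∈ pPow K p
    · rw [alpha_of_mem hu, alpha_of_mem hv, alpha_of_mem (add_mem hu hv), h.tau_add hu hv]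
    · have huv : v + u ∉ pPow K p := add_notMem hv hu
      rw [add_comm u v, alpha_of_mem hu, alpha_of_notMem hv, alpha_of_notMem huv,
        h.alpha0_add hv hu, add_comm]
  · by_cases hv : v ∈ pPow K p
    · rw [alpha_of_mem hv, alpha_of_notMem hu, alpha_of_notMem (add_notMem hu hv),
        h.alpha0_add hu hv]
    · rw [alpha_of_notMem hu, alpha_of_notMem hv]
      by_cases huv : u + v ∈ pPow K p
      · rw [alpha_of_mem huv]
        have hnu : -u ∉ pPow K p := fun hm => hu (by simpa using neg_mem hm)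
        have hv' : v = -u + (u + v) := by ring
        have h1 := h.alpha0_add hnu huv
        rw [← hv', h.alpha0_neg hu] at h1
        rw [h1]; ring
      · rw [alpha_of_notMem huv]
        have hu0 := ne_zero_of_notMem hu
        have hv0 := ne_zero_of_notMem hv
        by_cases hgen : PIndep p (θ u) (θ v)
        · exact (h.gen_add ⟨hu0, hv0, hgen⟩).2.1
        · have hθu := h.theta_notMem hu
          have hvm : θ v ∈ pAdj p (θ u) := by
            by_contra hn
            exact hgen ⟨hθu, hn⟩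
          have hua := h.alpha0_rel hu
          have hva := h.alpha0_rel hv
          have huva := h.alpha0_rel huv
          have ha'm : alpha0 p θ v ∈ pAdj p (alpha0 p θ u) := by
            rw [← hua.pAdj_eq]; exact hva.symm.mem_pAdj hvm
          obtain ⟨g, hg0, hg1, hg2⟩ := h.exists_avoid (alpha0 p θ u) (alpha0 p θ (u + v))
          have hug : Gen p θ u g := ⟨hu0, hg0, hθu, by rw [hua.pAdj_eq]; exact hg1⟩
          have huvg : Gen p θ (u + v) g :=
            ⟨ne_zero_of_notMem huv, hg0, h.theta_notMem huv, by rw [huva.pAdj_eq]; exact hg2⟩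
          have hg := hug.notMem_right h
          have hgb := h.alpha0_rel hg
          have hab : PIndep p (alpha0 p θ u) (alpha0 p θ g) := hug.2.2.congr hua hgb
          have haddug := h.gen_add hug
          have hpi : PIndep p (alpha0 p θ v) (alpha0 p θ u + alpha0 p θ g) := by
            refine ⟨h.alpha0_notMem hv, fun hm => hab.2 ?_⟩
            have h1 := pAdj_mono p ha'm hm
            have : alpha0 p θ g = (alpha0 p θ u + alpha0 p θ g) - alpha0 p θ u := by ring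
            rw [this]; exact sub_mem h1 (self_mem_pAdj p _)
          have hvug : Gen p θ v (u + g) :=
            ⟨hv0, ne_zero_of_notMem haddug.2.2.2, hpi.congr hva.symm haddug.1.symm⟩
          have e1 := (h.gen_add hvug).2.1
          have e2 := (h.gen_add huvg).2.1
          have e3 : v + (u + g) = u + v + g := by ring
          rw [e3, e2, haddug.2.1] at e1
          linear_combination e1

theorem Ctx.alpha_one (h : Ctx p θ) : alpha p θ 1 = 1 := by
  rw [alpha_of_mem (one_mem _), h.tau_one]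

theorem Ctx.alpha_rel (h : Ctx p θ) (u : K) (hu : u ≠ 0) : Rel p (θ u) (alpha p θ u) := by
  by_cases hm : u ∈ pPow K p
  · rw [alpha_of_mem hm]
    exact rel_of_mem ((h.theta_mem_iff hu).2 hm) (h.tau_mem hm) (h.ne_zero u hu)
      (h.tau_ne_zero hm hu)
  · rw [alpha_of_notMem hm]; exact h.alpha0_rel hm

theorem Ctx.alpha_ne_zero (h : Ctx p θ) (u : K) (hu : u ≠ 0) : alpha p θ u ≠ 0 :=
  (h.alpha_rel u hu).ne_zero' (h.ne_zero u hu)

theorem Ctx.alpha_mem_iff (h : Ctx p θ) (u : K) (hu : u ≠ 0) :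
    alpha p θ u ∈ pPow L p ↔ u ∈ pPow K p := by
  rw [← (h.alpha_rel u hu).mem_pPow_iff, h.theta_mem_iff hu]

theorem Ctx.alpha_mul_rel (h : Ctx p θ) (u v : K) (hu : u ≠ 0) (hv : v ≠ 0) :
    Rel p (alpha p θ (u * v)) (alpha p θ u * alpha p θ v) :=
  (h.alpha_rel (u * v) (mul_ne_zero hu hv)).symm.trans
    ((h.mul u v hu hv).trans ((h.alpha_rel u hu).mul (h.alpha_rel v hv)))

/-- An additive map that is multiplicative up to `p`-th powers is multiplicative (A7, A8). -/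
theorem mul_of_add {α : K → L} (hadd : ∀ u v, α (u + v) = α u + α v) (h1 : α 1 = 1)
    (hne : ∀ u, u ≠ 0 → α u ≠ 0)
    (hmul : ∀ u v, u ≠ 0 → v ≠ 0 → Rel p (α (u * v)) (α u * α v))
    (hpp : ∀ u, u ≠ 0 → (α u ∈ pPow L p ↔ u ∈ pPow K p))
    (hK : ∃ v : K, v ∉ pPow K p) : ∀ u v, α (u * v) = α u * α v := by
  have h0 : α 0 = 0 := by simpa using hadd 0 0
  have step1 : ∀ u w, u ≠ 0 → w ∉ pPow K p → α (u * w) = α u * α w := by
    intro u w hu hw
    have hw0 := ne_zero_of_notMem hw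
    have hw1 : w + 1 ≠ 0 := add_ne_zero_of_notMem hw (one_mem _)
    have hαw : α w ∉ pPow L p := fun hm => hw ((hpp w hw0).1 hm)
    obtain ⟨e, he, he0, e1⟩ := hmul u w hu hw0
    obtain ⟨e', he', he0', e2⟩ := hmul u (w + 1) hu hw1
    have e3 : α (u * (w + 1)) = α (u * w) + α u := by
      rw [mul_add, mul_one, hadd]
    have e4 : α (w + 1) = α w + 1 := by rw [hadd, h1]
    rw [e3, e4, e1] at e2
    have hαu := hne u hu
    have e5 : e' + e' * α w = 1 + e * α w := by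
      apply mul_left_cancel₀ hαu
      linear_combination -e2
    have hcc := cc2 hαw he' he' (one_mem _) he e5
    rw [e1, ← hcc.2, hcc.1, one_mul]
  intro u w
  by_cases hu : u = 0
  · subst hu; simp [h0]
  by_cases hw : w = 0
  · subst hw; simp [h0]
  by_cases hwF : w ∈ pPow K p
  · by_cases huF : u ∈ pPow K p
    · obtain ⟨v, hv⟩ := hK
      have hv0 := ne_zero_of_notMem hv
      have hwv : w * v ∉ pPow K p := by
        intro hm
        apply hv
        have : v = (w * v) / w := by field_simp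
        rw [this]; exact div_mem hm hwF
      have e1 := step1 (u * w) v (mul_ne_zero hu hw) hv
      have e2 := step1 u (w * v) hu hwv
      have e3 := step1 w v hw hv
      rw [← mul_assoc, e1, e3] at e2
      apply mul_right_cancel₀ (hne v hv0)
      linear_combination e2
    · rw [mul_comm u w, step1 w u hw huF, mul_comm]
  · exact step1 u w hu hwF

/-- Part B: from the normalised line lemma to a ring homomorphism inducing `θ`. -/
theorem Ctx.exists_ringHom (h : Ctx p θ) :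
    ∃ α : K →+* L, ∀ u, u ≠ 0 → Rel p (θ u) (α u) := by
  have hmul := mul_of_add (α := alpha p θ) h.alpha_add h.alpha_one h.alpha_ne_zero
    h.alpha_mul_rel h.alpha_mem_iff h.exists_notMem
  have h0 : alpha p θ 0 = 0 := by simpa using h.alpha_add 0 0
  exact ⟨{ toFun := alpha p θ, map_one' := h.alpha_one, map_mul' := hmul, map_zero' := h0,
           map_add' := h.alpha_add }, fun u hu => h.alpha_rel u hu⟩

end Crest.Agent.Helper75.S0010
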