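/-
S0010 (row 9), work package AS (abstract assembly), helper75.
Part A: the exponent `m` of the line lemma is a global constant (A1), normalisation to `m = 1`,
and the final abstract statement.
-/
import Crest.Agent.Helper75.S0010.PartB

set_option autoImplicit false

namespace Crest.Agent.Helper75.S0010

variable {K L : Type*} [Field K] [Field L] {p : ℕ} [Fact p.Prime] [CharP K p] [CharP L p]

/-- a derivation kills `p`-th powers. -/
theorem deriv_pPow (D : Derivation ℤ L L) {e : L} (he : e ∈ pPow L p) : D e = 0 := by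
  obtain ⟨b, rfl⟩ := (mem_pPow p).1 he
  rw [Derivation.leibniz_pow]
  simp

theorem deriv_rel (D : Derivation ℤ L L) {X Y : L} (h : Rel p X Y) : D X * Y = D Y * X := by
  obtain ⟨e, he, -, rfl⟩ := h
  rw [Derivation.leibniz, deriv_pPow D he]
  simp only [smul_eq_mul, mul_zero, add_zero]
  ring

/-- the uniqueness lemma (PL) in the normalised form. -/
theorem pl_aux (D : Derivation ℤ L L) {P P' : L} {m m' : ℕ} (hm : 0 < m) (hmp : m < p)
    (hm' : 0 < m') (hm'p : m' < p) (hDP : D P = 1) (hP0 : P ≠ 0) (hP'0 : P' ≠ 0)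
    (hP1 : P + 1 ≠ 0) (hP'1 : P' + 1 ≠ 0) (h0 : Rel p (P ^ m) (P' ^ m'))
    (h1 : Rel p ((P + 1) ^ m) ((P' + 1) ^ m')) : m = m' := by
  have e0 := deriv_rel D h0
  have e1 := deriv_rel D h1
  have hD1 : D (P + 1) = 1 := by rw [map_add, hDP, Derivation.map_one_eq_zero, add_zero]
  have hD1' : D (P' + 1) = D P' := by rw [map_add, Derivation.map_one_eq_zero, add_zero]
  rw [Derivation.leibniz_pow, Derivation.leibniz_pow] at e0 e1
  simp only [hDP, hD1, hD1', smul_eq_mul, nsmul_eq_mul, mul_one] at e0 e1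
  have hPm : P ^ m = P ^ (m - 1) * P := (pow_sub_one_mul hm.ne' P).symm
  have hP'm : P' ^ m' = P' ^ (m' - 1) * P' := (pow_sub_one_mul hm'.ne' P').symm
  have hP1m : (P + 1) ^ m = (P + 1) ^ (m - 1) * (P + 1) := (pow_sub_one_mul hm.ne' _).symm
  have hP'1m : (P' + 1) ^ m' = (P' + 1) ^ (m' - 1) * (P' + 1) := (pow_sub_one_mul hm'.ne' _).symm
  rw [hPm, hP'm] at e0
  rw [hP1m, hP'1m] at e1
  have e0' : (m : L) * P' = (m' : L) * D P' * P := by
    have hne : P ^ (m - 1) * P' ^ (m' - 1) ≠ 0 :=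
      mul_ne_zero (pow_ne_zero _ hP0) (pow_ne_zero _ hP'0)
    apply mul_left_cancel₀ hne
    linear_combination e0
  have e1' : (m : L) * (P' + 1) = (m' : L) * D P' * (P + 1) := by
    have hne : (P + 1) ^ (m - 1) * (P' + 1) ^ (m' - 1) ≠ 0 :=
      mul_ne_zero (pow_ne_zero _ hP1) (pow_ne_zero _ hP'1)
    apply mul_left_cancel₀ hne
    linear_combination e1
  have hmL : (m : L) ≠ 0 := by
    intro h
    rw [CharP.cast_eq_zero_iff L p] at h
    exact absurd (Nat.le_of_dvd hm h) (not_le.2 hmp)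
  have e2 : (m : L) = (m' : L) * D P' := by linear_combination e1' - e0'
  have e3 : P' = P := by
    apply mul_left_cancel₀ hmL
    rw [e0', ← e2]
  rw [e3, hDP, mul_one] at e2
  have := (CharP.natCast_eq_natCast L p).1 e2
  exact Nat.ModEq.eq_of_lt_of_lt this hmp hm'p

variable {θ : K → L}

namespace IsLift

theorem theta_one_mem (h : IsLift p θ) : θ 1 ∈ pPow L p := by
  obtain ⟨e, he, he0, hh⟩ := h.mul 1 1 one_ne_zero one_ne_zero
  have h1 : θ 1 ≠ 0 := h.ne_zero 1 one_ne_zero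
  rw [mul_one] at hh
  have h2 : e * θ 1 = 1 := by
    apply mul_right_cancel₀ h1
    linear_combination -hh
  have h3 : θ 1 = e⁻¹ := eq_inv_of_mul_eq_one_right h2
  rw [h3]; exact inv_mem he

theorem theta_mem_iff (h : IsLift p θ) {u : K} (hu : u ≠ 0) :
    θ u ∈ pPow L p ↔ u ∈ pPow K p := by
  rw [← rel_one_iff hu, ← h.rel_iff u 1 hu one_ne_zero]
  constructor
  · intro hm
    exact rel_of_mem hm h.theta_one_mem (h.ne_zero u hu) (h.ne_zero 1 one_ne_zero)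
  · intro hr; exact hr.mem_pPow h.theta_one_mem

theorem theta_notMem (h : IsLift p θ) {f : K} (hf : f ∉ pPow K p) : θ f ∉ pPow L p :=
  fun hm => hf ((h.theta_mem_iff (ne_zero_of_notMem hf)).1 hm)

theorem exists_avoid (h : IsLift p θ) (hB : Big L p) (x x' : L) :
    ∃ g : K, g ≠ 0 ∧ θ g ∉ pAdj p x ∧ θ g ∉ pAdj p x' := by
  obtain ⟨y, hy, hy'⟩ := exists_notMem_two hB x x'
  have hy0 : y ≠ 0 := by rintro rfl; exact hy (zero_mem _)
  obtain ⟨g, hg0, hg⟩ := h.surj y hy0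
  exact ⟨g, hg0, fun hm => hy (hg.symm.mem_pAdj hm), fun hm => hy' (hg.symm.mem_pAdj hm)⟩

theorem exists_notMem (h : IsLift p θ) (hB : Big L p) : ∃ f : K, f ∉ pPow K p := by
  obtain ⟨g, hg0, hg, -⟩ := h.exists_avoid hB (1 : L) 1
  exact ⟨g, fun hm => hg (pPow_le_pAdj p 1 ((h.theta_mem_iff hg0).2 hm))⟩

end IsLift

/-- normalised line data at `f` with exponent `m`. -/
def NData (p : ℕ) [Fact p.Prime] [CharP K p] [CharP L p] (θ : K → L) (f : K) (m : ℕ) : Prop :=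
  ∃ P : L, Rel p (θ f) (P ^ m) ∧ Rel p (θ (f + 1)) ((P + 1) ^ m)

theorem NData.unique (hθ : IsLift p θ)
    (hD : ∀ t : L, t ∉ pPow L p → ∃ D : Derivation ℤ L L, D t = 1) {f : K}
    (hf : f ∉ pPow K p) {m m' : ℕ} (hm : 0 < m) (hmp : m < p) (hm' : 0 < m') (hm'p : m' < p)
    (h : NData p θ f m) (h' : NData p θ f m') : m = m' := by
  obtain ⟨P, h0, h1⟩ := h
  obtain ⟨P', h0', h1'⟩ := h'
  have hf0 := ne_zero_of_notMem hf
  have hf1 : f + 1 ≠ 0 := add_ne_zero_of_notMem hf (one_mem _)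
  have hP0 : P ≠ 0 := by
    rintro rfl
    rw [zero_pow hm.ne'] at h0
    exact h0.ne_zero' (hθ.ne_zero f hf0) rfl
  have hP'0 : P' ≠ 0 := by
    rintro rfl
    rw [zero_pow hm'.ne'] at h0'
    exact h0'.ne_zero' (hθ.ne_zero f hf0) rfl
  have hP1 : P + 1 ≠ 0 := by
    intro hz
    rw [hz, zero_pow hm.ne'] at h1
    exact h1.ne_zero' (hθ.ne_zero _ hf1) rfl
  have hP'1 : P' + 1 ≠ 0 := by
    intro hz
    rw [hz, zero_pow hm'.ne'] at h1'
    exact h1'.ne_zero' (hθ.ne_zero _ hf1) rfl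
  have hPF : P ∉ pPow L p := fun hmem => hθ.theta_notMem hf (h0.mem_pPow (pow_mem hmem m))
  obtain ⟨D, hD1⟩ := hD P hPF
  exact pl_aux D hm hmp hm' hm'p hD1 hP0 hP'0 hP1 hP'1 (h0.symm.trans h0') (h1.symm.trans h1')

theorem LLat.ndata_left {f g : K} {m : ℕ} (h : LLat p θ m f g) : NData p θ f m := by
  obtain ⟨P, Q, lam, hl, h0, h1, hc⟩ := h
  refine ⟨P, ?_, ?_⟩
  · simpa [h0] using (hc 0 (zero_mem _)).1
  · simpa [h1] using (hc 1 (one_mem _)).1

theorem LLat.ndata_right (hθ : IsLift p θ) {f g : K} {m : ℕ} (hg : g ∉ pPow K p)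
    (h : LLat p θ m f g) : NData p θ g m := by
  obtain ⟨P, Q, lam, hl, h0, h1, hc⟩ := h
  have hQ0 : Rel p (θ g) (Q ^ m) := by simpa [h0] using (hc 0 (zero_mem _)).2.1
  have hQ1 : Rel p (θ (g + 1)) ((Q - lam (-1)) ^ m) := by
    simpa using (hc (-1) (neg_mem (one_mem _))).2.1
  obtain ⟨μ, hμ⟩ : ∃ μ, μ = - lam (-1) := ⟨_, rfl⟩
  have hμF : μ ∈ pPow L p := by rw [hμ]; exact neg_mem (hl _ (neg_mem (one_mem _)))
  have e : Q - lam (-1) = Q + μ := by rw [hμ]; ring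
  rw [e] at hQ1
  have hμ0 : μ ≠ 0 := by
    intro h0'
    rw [h0', add_zero] at hQ1
    have hr : Rel p (θ (g + 1)) (θ g) := hQ1.trans hQ0.symm
    have hg1 : g + 1 ≠ 0 := add_ne_zero_of_notMem hg (one_mem _)
    obtain ⟨e, he, he0, h3⟩ := (hθ.rel_iff (g + 1) g hg1 (ne_zero_of_notMem hg)).1 hr
    have hcc := cc2 hg (one_mem _) (one_mem _) (zero_mem _) he
      (show 1 + 1 * g = 0 + e * g by linear_combination h3)
    exact one_ne_zero hcc.1
  refine ⟨Q / μ, ?_, ?_⟩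
  · refine hQ0.trans ⟨μ ^ m, pow_mem hμF m, pow_ne_zero m hμ0, ?_⟩
    rw [← mul_pow]; congr 1; field_simp
  · refine hQ1.trans ⟨μ ^ m, pow_mem hμF m, pow_ne_zero m hμ0, ?_⟩
    rw [← mul_pow]; congr 1; field_simp

/-- (A1) the exponent of the line lemma is a global constant. -/
theorem exists_global_m (hθ : IsLift p θ) (hB : Big L p)
    (hD : ∀ t : L, t ∉ pPow L p → ∃ D : Derivation ℤ L L, D t = 1)
    (hLL : ∀ f g, f ≠ 0 → g ≠ 0 → PIndep p (θ f) (θ g) →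
      ∃ m, 0 < m ∧ m < p ∧ LLat p θ m f g) :
    ∃ m, 0 < m ∧ m < p ∧ ∀ f g, f ≠ 0 → g ≠ 0 → PIndep p (θ f) (θ g) → LLat p θ m f g := by
  obtain ⟨f₀, hf₀⟩ := hθ.exists_notMem hB
  have key : ∀ f g m, f ≠ 0 → g ≠ 0 → PIndep p (θ f) (θ g) → 0 < m → m < p →
      LLat p θ m f g → ∀ f' g' m', f' ≠ 0 → g' ≠ 0 → PIndep p (θ f') (θ g') → 0 < m' →
      m' < p → LLat p θ m' f' g' → m = m' := by
    intro f g m hf0 hg0 hfg hm hmp hll f' g' m' hf0' hg0' hfg' hm' hmp' hll'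
    have hf : f ∉ pPow K p := fun hmem => hfg.1 ((hθ.theta_mem_iff hf0).2 hmem)
    have hf' : f' ∉ pPow K p := fun hmem => hfg'.1 ((hθ.theta_mem_iff hf0').2 hmem)
    obtain ⟨g'', hg''0, hg''1, hg''2⟩ := hθ.exists_avoid hB (θ f) (θ f')
    have hp1 : PIndep p (θ f) (θ g'') := ⟨hfg.1, hg''1⟩
    have hp2 : PIndep p (θ f') (θ g'') := ⟨hfg'.1, hg''2⟩
    have hg'' : g'' ∉ pPow K p :=
      fun hmem => hp1.right_notMem ((hθ.theta_mem_iff hg''0).2 hmem)
    obtain ⟨m₁, hm₁, hm₁p, hll₁⟩ := hLL f g'' hf0 hg''0 hp1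
    obtain ⟨m₂, hm₂, hm₂p, hll₂⟩ := hLL f' g'' hf0' hg''0 hp2
    have e1 : m = m₁ := NData.unique hθ hD hf hm hmp hm₁ hm₁p hll.ndata_left hll₁.ndata_left
    have e2 : m₁ = m₂ := NData.unique hθ hD hg'' hm₁ hm₁p hm₂ hm₂p
      (hll₁.ndata_right hθ hg'') (hll₂.ndata_right hθ hg'')
    have e3 : m₂ = m' := NData.unique hθ hD hf' hm₂ hm₂p hm' hmp' hll₂.ndata_left
      hll'.ndata_left
    rw [e1, e2, e3]
  obtain ⟨g₀, hg₀0, hg₀1, -⟩ := hθ.exists_avoid hB (θ f₀) (θ f₀)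
  have hp0 : PIndep p (θ f₀) (θ g₀) := ⟨hθ.theta_notMem hf₀, hg₀1⟩
  obtain ⟨m₀, hm₀, hm₀p, hll₀⟩ := hLL f₀ g₀ (ne_zero_of_notMem hf₀) hg₀0 hp0
  refine ⟨m₀, hm₀, hm₀p, fun f g hf0 hg0 hfg => ?_⟩
  obtain ⟨m, hm, hmp, hll⟩ := hLL f g hf0 hg0 hfg
  rw [key f₀ g₀ m₀ (ne_zero_of_notMem hf₀) hg₀0 hp0 hm₀ hm₀p hll₀ f g m hf0 hg0 hfg hm hmp hll]
  exact hll

theorem rel_pow_one_add (X : L) (j : ℕ) : Rel p (X ^ (1 + p * j)) X := by
  by_cases hX : X = 0
  · subst hX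
    rw [zero_pow (by omega)]
    exact Rel.refl 0
  · refine ⟨(X ^ j) ^ p, pow_mem_pPow p _, pow_ne_zero _ (pow_ne_zero _ hX), ?_⟩
    ring

/-- The abstract assembly theorem (A1–A8): a lift `θ` of a group isomorphism `Kˣ/p → Lˣ/p`
satisfying the line lemma is, up to `p`-th powers, the `m`-th power of a ring homomorphism. -/
theorem exists_ringHom_of_LL (hθ : IsLift p θ) (hE : Exch L p) (hB : Big L p)
    (hD : ∀ t : L, t ∉ pPow L p → ∃ D : Derivation ℤ L L, D t = 1)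
    (hLL : ∀ f g, f ≠ 0 → g ≠ 0 → PIndep p (θ f) (θ g) →
      ∃ m, 0 < m ∧ m < p ∧ LLat p θ m f g) :
    ∃ α : K →+* L, ∃ m, 0 < m ∧ m < p ∧ ∀ u, u ≠ 0 → Rel p (θ u) (α u ^ m) := by
  obtain ⟨m, hm, hmp, hLLm⟩ := exists_global_m hθ hB hD hLL
  have hp : p.Prime := Fact.out
  have hcop : Nat.Coprime m p :=
    Nat.Coprime.symm ((Nat.Prime.coprime_iff_not_dvd hp).2 (Nat.not_dvd_of_pos_of_lt hm hmp))
  obtain ⟨m', -, hm'⟩ := Nat.exists_mul_mod_eq_one_of_coprime hcop hp.one_lt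
  obtain ⟨j, hj⟩ : ∃ j, m * m' = 1 + p * j := by
    refine ⟨m * m' / p, ?_⟩
    have := Nat.div_add_mod (m * m') p
    omega
  have norm : ∀ X : L, Rel p ((X ^ m) ^ m') X := by
    intro X
    rw [← pow_mul, hj]
    exact rel_pow_one_add X j
  have norm' : ∀ X : L, Rel p ((X ^ m') ^ m) X := by
    intro X
    rw [← pow_mul, mul_comm, hj]
    exact rel_pow_one_add X j
  have hctx : Ctx p (fun u => θ u ^ m') :=
    { ne_zero := fun u hu => pow_ne_zero _ (hθ.ne_zero u hu)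
      mul := fun u v hu hv => by
        have := (hθ.mul u v hu hv).pow m'
        rwa [mul_pow] at this
      rel_iff := fun u v hu hv => by
        constructor
        · intro hr
          have h1 := hr.pow m
          exact (hθ.rel_iff u v hu hv).1 ((norm' _).symm.trans (h1.trans (norm' _)))
        · intro hr
          exact ((hθ.rel_iff u v hu hv).2 hr).pow m'
      surj := fun y hy => by
        obtain ⟨g, hg0, hg⟩ := hθ.surj (y ^ m) (pow_ne_zero _ hy)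
        exact ⟨g, hg0, (hg.pow m').trans (norm y)⟩
      exch := hE
      big := hB
      ll := fun f g hf0 hg0 hpi' => by
        have hle : pAdj p (θ f) ≤ pAdj p (θ f ^ m') :=
          pAdj_mono p ((norm' (θ f)).symm.mem_pAdj (pow_mem (self_mem_pAdj p _) m))
        have hpi : PIndep p (θ f) (θ g) :=
          ⟨fun hmem => hpi'.1 (pow_mem hmem m'), fun hmem => hpi'.2 (pow_mem (hle hmem) m')⟩
        obtain ⟨P, Q, lam, hl, h0, h1, hc⟩ := hLLm f g hf0 hg0 hpi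
        refine ⟨P, Q, lam, hl, h0, h1, fun c hcF => ?_⟩
        obtain ⟨r1, r2, r3⟩ := hc c hcF
        simp only [pow_one]
        exact ⟨(r1.pow m').trans (norm _), (r2.pow m').trans (norm _),
          (r3.pow m').trans (norm _)⟩ }
  obtain ⟨α, hα⟩ := hctx.exists_ringHom
  exact ⟨α, m, hm, hmp, fun u hu => (norm' (θ u)).symm.trans ((hα u hu).pow m)⟩

end Crest.Agent.Helper75.S0010
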