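/-
S0010 (row 9), work package AS, helper75.
Bridge: from a linear equivalence `Θ : KOne K p ≃ KOne L p` satisfying the line lemma to a ring
homomorphism `α : K → L` with `Θ[u] = c • [α u]`.
-/
import Crest.Prelude.Def_MilnorK
import Crest.Agent.Helper75.S0010.PartA

set_option autoImplicit false

open Crest.NumberTheoryR.MilnorK

namespace Crest.Agent.Helper75.S0010

section Cls

variable {F : Type*} [Field F] {p : ℕ}

theorem cls_def (u : Fˣ) :
    cls F p u = (QuotientAddGroup.mk (Additive.ofMul u) : Additive Fˣ ⧸ pMultiples F p) := rfl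

theorem mem_pMultiples (a : Additive Fˣ) :
    a ∈ pMultiples F p ↔ ∃ w : Fˣ, w ^ p = Additive.toMul a := by
  change a ∈ (nsmulAddMonoidHom p : Additive Fˣ →+ Additive Fˣ).range ↔ _
  rw [AddMonoidHom.mem_range]
  constructor
  · rintro ⟨x, rfl⟩
    exact ⟨Additive.toMul x, rfl⟩
  · rintro ⟨w, hw⟩
    exact ⟨Additive.ofMul w, by
      apply Additive.toMul.injective
      rw [← hw]; rfl⟩

theorem cls_mul (u v : Fˣ) : cls F p (u * v) = cls F p u + cls F p v := rfl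

theorem cls_surjective (ξ : KOne F p) : ∃ u : Fˣ, cls F p u = ξ := by
  obtain ⟨a, ha⟩ := QuotientAddGroup.mk_surjective ξ
  exact ⟨Additive.toMul a, ha⟩

theorem cls_pow (u : Fˣ) (n : ℕ) : cls F p (u ^ n) = n • cls F p u := by
  induction n with
  | zero => rw [pow_zero, zero_nsmul]; rfl
  | succ n ih => rw [pow_succ, cls_mul, ih, succ_nsmul]

variable [Fact p.Prime] [CharP F p]

theorem cls_eq_cls_iff (u v : Fˣ) : cls F p u = cls F p v ↔ Rel p (u : F) (v : F) := by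
  rw [cls_def, cls_def, QuotientAddGroup.eq, mem_pMultiples]
  constructor
  · rintro ⟨w, hw⟩
    have hw' : w ^ p = u⁻¹ * v := hw
    have h2 : ((w ^ p : Fˣ) : F) = ((u⁻¹ * v : Fˣ) : F) := congrArg _ hw'
    rw [Units.val_pow_eq_pow_val, Units.val_mul, Units.val_inv_eq_inv_val] at h2
    have hu : (u : F) ≠ 0 := Units.ne_zero u
    have hw0 : (w : F) ≠ 0 := Units.ne_zero w
    refine ⟨((w : F)⁻¹) ^ p, pow_mem_pPow p _, pow_ne_zero _ (inv_ne_zero hw0), ?_⟩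
    rw [inv_pow, h2]
    field_simp
  · rintro ⟨e, he, he0, h⟩
    obtain ⟨b, rfl⟩ := (mem_pPow p).1 he
    have hb : b ≠ 0 := by
      rintro rfl
      exact he0 (zero_pow (Fact.out : p.Prime).ne_zero)
    refine ⟨(Units.mk0 b hb)⁻¹, ?_⟩
    change (Units.mk0 b hb)⁻¹ ^ p = u⁻¹ * v
    apply Units.ext
    rw [Units.val_pow_eq_pow_val, Units.val_mul, Units.val_inv_eq_inv_val,
      Units.val_inv_eq_inv_val, Units.val_mk0, h]
    have hv : (v : F) ≠ 0 := Units.ne_zero v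
    rw [inv_pow, mul_inv, mul_assoc, inv_mul_cancel₀ hv, mul_one]

theorem cls_mk0_eq_iff {a b : F} (ha : a ≠ 0) (hb : b ≠ 0) :
    cls F p (Units.mk0 a ha) = cls F p (Units.mk0 b hb) ↔ Rel p a b :=
  cls_eq_cls_iff _ _

omit [CharP F p] in
theorem natCast_smul_cls (m : ℕ) (u : Fˣ) :
    (m : ZMod p) • cls F p u = cls F p (u ^ m) := by
  rw [cls_pow, Nat.cast_smul_eq_nsmul]

end Cls

variable {K L : Type*} [Field K] [Field L] {p : ℕ} [Fact p.Prime] [CharP K p] [CharP L p]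

/-- `Θ[u] = [v]` for elements `u ≠ 0` of `K` and `v ≠ 0` of `L`. -/
def ClsRel (Θ : KOne K p ≃ₗ[ZMod p] KOne L p) (u : K) (v : L) : Prop :=
  ∃ (hu : u ≠ 0) (hv : v ≠ 0), Θ (cls K p (Units.mk0 u hu)) = cls L p (Units.mk0 v hv)

/-- The line lemma (LL) for `Θ`, in the form consumed by the assembly. -/
def LineLemma (Θ : KOne K p ≃ₗ[ZMod p] KOne L p) : Prop :=
  ∀ (f g : K) (x y : L), ClsRel Θ f x → ClsRel Θ g y → PIndep p x y →
    ∃ m : ℕ, 0 < m ∧ m < p ∧ ∃ P Q : L, ∃ lam : K → L,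
      (∀ c ∈ pPow K p, lam c ∈ pPow L p) ∧ lam 0 = 0 ∧ lam 1 = 1 ∧
      ∀ c ∈ pPow K p, ClsRel Θ (f + c) ((P + lam c) ^ m) ∧
        ClsRel Θ (g - c) ((Q - lam c) ^ m) ∧ ClsRel Θ (f + g) ((P + Q) ^ m)

/-- a lift of `Θ` on units. -/
noncomputable def liftUnit (Θ : KOne K p ≃ₗ[ZMod p] KOne L p) (u : Kˣ) : Lˣ :=
  (cls_surjective (Θ (cls K p u))).choose

omit [CharP K p] [CharP L p] in
theorem liftUnit_spec (Θ : KOne K p ≃ₗ[ZMod p] KOne L p) (u : Kˣ) :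
    cls L p (liftUnit Θ u) = Θ (cls K p u) :=
  (cls_surjective (Θ (cls K p u))).choose_spec

open Classical in
/-- a set-theoretic lift of `Θ` to a map `K → L`. -/
noncomputable def liftFun (Θ : KOne K p ≃ₗ[ZMod p] KOne L p) (u : K) : L :=
  if hu : u ≠ 0 then (liftUnit Θ (Units.mk0 u hu) : L) else 0

theorem liftFun_spec (Θ : KOne K p ≃ₗ[ZMod p] KOne L p) {u : K} (hu : u ≠ 0) :
    ∃ hv : liftFun Θ u ≠ 0,
      cls L p (Units.mk0 (liftFun Θ u) hv) = Θ (cls K p (Units.mk0 u hu)) := by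
  have hval : liftFun Θ u = (liftUnit Θ (Units.mk0 u hu) : L) := by
    unfold liftFun
    rw [dif_pos hu]
  have hv : liftFun Θ u ≠ 0 := by rw [hval]; exact Units.ne_zero _
  refine ⟨hv, ?_⟩
  have hmk : Units.mk0 (liftFun Θ u) hv = liftUnit Θ (Units.mk0 u hu) := Units.ext hval
  rw [hmk, liftUnit_spec]

theorem clsRel_liftFun (Θ : KOne K p ≃ₗ[ZMod p] KOne L p) {u : K} (hu : u ≠ 0) :
    ClsRel Θ u (liftFun Θ u) := by
  obtain ⟨hv, h⟩ := liftFun_spec Θ hu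
  exact ⟨hu, hv, h.symm⟩

theorem ClsRel.rel {Θ : KOne K p ≃ₗ[ZMod p] KOne L p} {u : K} {v : L} (h : ClsRel Θ u v) :
    Rel p (liftFun Θ u) v := by
  obtain ⟨hu, hv, h⟩ := h
  obtain ⟨hv', h'⟩ := liftFun_spec Θ hu
  exact (cls_mk0_eq_iff hv' hv).1 (h'.trans h)

theorem isLift_liftFun (Θ : KOne K p ≃ₗ[ZMod p] KOne L p) : IsLift p (liftFun Θ) where
  ne_zero := fun u hu => (liftFun_spec Θ hu).1
  mul := fun u v hu hv => by
    obtain ⟨hu', h1⟩ := liftFun_spec Θ hu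
    obtain ⟨hv', h2⟩ := liftFun_spec Θ hv
    obtain ⟨huv', h3⟩ := liftFun_spec Θ (mul_ne_zero hu hv)
    have hmk : Units.mk0 (u * v) (mul_ne_zero hu hv) = Units.mk0 u hu * Units.mk0 v hv :=
      Units.ext rfl
    have hmk' : Units.mk0 (liftFun Θ u * liftFun Θ v) (mul_ne_zero hu' hv')
        = Units.mk0 _ hu' * Units.mk0 _ hv' := Units.ext rfl
    refine (cls_mk0_eq_iff huv' (mul_ne_zero hu' hv')).1 ?_
    rw [h3, hmk, cls_mul, map_add, ← h1, ← h2, hmk', cls_mul]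
  rel_iff := fun u v hu hv => by
    obtain ⟨hu', h1⟩ := liftFun_spec Θ hu
    obtain ⟨hv', h2⟩ := liftFun_spec Θ hv
    rw [← cls_mk0_eq_iff hu' hv', h1, h2, Θ.injective.eq_iff, cls_mk0_eq_iff]
  surj := fun y hy => by
    obtain ⟨g, hg⟩ := cls_surjective (Θ.symm (cls L p (Units.mk0 y hy)))
    have hg0 : (g : K) ≠ 0 := Units.ne_zero g
    refine ⟨(g : K), hg0, ?_⟩
    obtain ⟨hv, h1⟩ := liftFun_spec Θ hg0
    refine (cls_mk0_eq_iff hv hy).1 ?_
    have hmk : Units.mk0 (g : K) hg0 = g := Units.ext rfl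
    rw [h1, hmk, hg, LinearEquiv.apply_symm_apply]

/-- **Assembly for `Θ`**: a linear equivalence `Θ : KOne K p ≃ KOne L p` satisfying the line
lemma is a non-zero multiple of the map induced by a ring homomorphism `K → L`. -/
theorem exists_ringHom_of_lineLemma (Θ : KOne K p ≃ₗ[ZMod p] KOne L p) (hE : Exch L p)
    (hB : Big L p) (hD : ∀ t : L, t ∉ pPow L p → ∃ D : Derivation ℤ L L, D t = 1)
    (hLL : LineLemma Θ) :
    ∃ α : K →+* L, ∃ c : ZMod p, c ≠ 0 ∧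
      ∀ u : Kˣ, Θ (cls K p u) = c • cls L p (Units.map α.toMonoidHom u) := by
  have hθ := isLift_liftFun Θ
  have hLL' : ∀ f g, f ≠ 0 → g ≠ 0 → PIndep p (liftFun Θ f) (liftFun Θ g) →
      ∃ m, 0 < m ∧ m < p ∧ LLat p (liftFun Θ) m f g := by
    intro f g hf hg hpi
    obtain ⟨m, hm, hmp, P, Q, lam, hl, h0, h1, hc⟩ :=
      hLL f g _ _ (clsRel_liftFun Θ hf) (clsRel_liftFun Θ hg) hpi
    exact ⟨m, hm, hmp, P, Q, lam, hl, h0, h1, fun c hcF =>
      ⟨(hc c hcF).1.rel, (hc c hcF).2.1.rel, (hc c hcF).2.2.rel⟩⟩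
  obtain ⟨α, m, hm, hmp, hα⟩ := exists_ringHom_of_LL hθ hE hB hD hLL'
  refine ⟨α, (m : ZMod p), ?_, fun u => ?_⟩
  · intro h0
    rw [ZMod.natCast_eq_zero_iff] at h0
    exact absurd (Nat.le_of_dvd hm h0) (not_le.2 hmp)
  · have hu0 : (u : K) ≠ 0 := Units.ne_zero u
    obtain ⟨hv, h1⟩ := liftFun_spec Θ hu0
    have hmk : Units.mk0 (u : K) hu0 = u := Units.ext rfl
    rw [hmk] at h1
    rw [← h1, natCast_smul_cls]
    have hr := hα (u : K) hu0
    have hne : α (u : K) ^ m ≠ 0 := hr.ne_zero' hv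
    have h2 := (cls_mk0_eq_iff hv hne).2 hr
    rw [h2]
    congr 1
    apply Units.ext
    rw [Units.val_mk0, Units.val_pow_eq_pow_val]
    rfl

end Crest.Agent.Helper75.S0010
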